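import Vale.Agent.P109.N.Final

open MeasureTheory Vale.Agent.P109.N

universe u v

theorem Vale.Agent.Results.P109.A_full.result :
    ∃ (X : Type) (_ : MeasurableSpace X) (_ : StandardBorelSpace X) (μ : Measure X)
      (_ : IsProbabilityMeasure μ) (_ : NullSingletonClass μ) (T : X ≃ᵐ X),
      Ergodic T μ ∧ ksEntropy μ T < ⊤ ∧ ¬HasSmoothModel.{u, v} μ T ∧
        ¬IsSmoothFactor.{u, v} μ T :=
  main
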