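import Vale.Agent.P109.Defs
import Vale.Agent.P109.Circ

open MeasureTheory Vale.Agent.P109

namespace Vale.Agent.Results.P109.C_odometer

theorem result {X : Type*} [MeasurableSpace X] [StandardBorelSpace X] (μ : Measure X)
    [IsProbabilityMeasure μ] (T : X ≃ᵐ X) (hT : MeasurePreserving T μ μ) (h : IsOdometer μ T)
    [MeasurableSpace Circle] [BorelSpace Circle]
    (ν : Measure (Circle × Circle)) [ν.IsHaarMeasure] [IsProbabilityMeasure ν] :
    ∃ S : Circle × Circle ≃ Circle × Circle, TorusSmooth S ∧ TorusSmooth S.symm ∧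
      MeasurePreserving S ν ν ∧ Isomorphic μ T ν S := by
  obtain ⟨q, hd, φ, hq, hu, h1, h2, h3, h4⟩ := h
  obtain ⟨S, a, b⟩ := main μ T hT q hq hd hu φ ⟨h1, h2, h3, h4⟩ ν
  exact ⟨S.toEquiv, S.contMDiff, S.symm.contMDiff, a, b⟩

end Vale.Agent.Results.P109.C_odometer
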